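import Vale.Agent.P159.T1.H376.Fin
import Vale.Agent.P159.T1.H775.EN
import Vale.Agent.P159.T1.H565.Up6

/-!
Lattice sums of the tilt field with an arbitrary outer radius `A` (P159, sharp stage, row S.BE).
-/

open Finset

namespace Vale.Agent.P159.T1.S.H407

open Vale.Agent.P159.T1.D
open Vale.Agent.P159.T1.H565 (Kf kf mB mb)
open Vale.Agent.P159.T1.H376 (gs_eq kf_abs K_shift IsU s0 psi isU_ud ud nr)

/-! ### sums over all finite sets of bonds -/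

/-- all finite sums of squares over bonds with the property `P` are at most `M` -/
def EP (P : Bnd → Prop) (F : Bnd → ℝ) (M : ℝ) : Prop :=
  ∀ S : Finset Bnd, (∀ e ∈ S, P e) → ∑ e ∈ S, F e ^ 2 ≤ M

/-- all oscillations are at most `M` -/
def OB (l : ℕ) (F : Bnd → ℝ) (M : ℝ) : Prop := ∀ S : Finset Bnd, osc l S F ≤ M

/-- the field is at most `M` -/
def SBd (F : Bnd → ℝ) (M : ℝ) : Prop := ∀ e, |F e| ≤ M

section EP

variable {P : Bnd → Prop}

lemma EP.add {F G : Bnd → ℝ} {M N : ℝ} (h : EP P F M) (h' : EP P G N) :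
    EP P (fun e => F e + G e) (2 * M + 2 * N) := fun S hS => by
  refine (Finset.sum_le_sum fun e _ => (?_ : _ ≤ 2 * F e ^ 2 + 2 * G e ^ 2)).trans ?_
  · nlinarith [sq_nonneg (F e - G e)]
  · rw [Finset.sum_add_distrib, ← Finset.mul_sum, ← Finset.mul_sum]
    linarith [h S hS, h' S hS]

lemma EP.sub {F G : Bnd → ℝ} {M N : ℝ} (h : EP P F M) (h' : EP P G N) :
    EP P (fun e => F e - G e) (2 * M + 2 * N) := fun S hS => by
  refine (Finset.sum_le_sum fun e _ => (?_ : _ ≤ 2 * F e ^ 2 + 2 * G e ^ 2)).trans ?_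
  · nlinarith [sq_nonneg (F e + G e)]
  · rw [Finset.sum_add_distrib, ← Finset.mul_sum, ← Finset.mul_sum]
    linarith [h S hS, h' S hS]

lemma EP.mir {F : Bnd → ℝ} {M : ℝ} (h : EP P F M) {r : ℕ} (hP : ∀ e, P e → P (mb r e)) :
    EP P (mB r F) M := fun S hS => by
  rw [H565.sum_mB_sq]
  refine h _ fun e he => ?_
  obtain ⟨e', he', rfl⟩ := Finset.mem_image.1 he
  exact hP _ (hS _ he')

lemma EP.le {F : Bnd → ℝ} {M N : ℝ} (h : EP P F M) (h' : M ≤ N) : EP P F N := fun S hS =>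
  (h S hS).trans h'

lemma EP.of_zero {F : Bnd → ℝ} (h : ∀ e, P e → F e = 0) : EP P F 0 := fun S hS => by
  refine le_of_eq (Finset.sum_eq_zero fun e he => ?_)
  rw [h e (hS e he)]
  norm_num

end EP

lemma OB.le {l : ℕ} {F : Bnd → ℝ} {M N : ℝ} (h : OB l F M) (h' : M ≤ N) : OB l F N := fun S =>
  (h S).trans h'

lemma OB.mir {l : ℕ} {F : Bnd → ℝ} {M : ℝ} (h : OB l F M) (r : ℕ) : OB l (mB r F) M := fun S => by
  rw [H565.osc_mB]
  exact h _

lemma OB.add {l : ℕ} {F G : Bnd → ℝ} {M N : ℝ} (h : OB l F M) (h' : OB l G N) :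
    OB l (fun e => F e + G e) (2 * M + 2 * N) := fun S => by
  have h1 : osc l S (fun e => F e + G e) ≤ 2 * osc l S F + 2 * osc l S G := by
    unfold osc
    rw [Finset.mul_sum, Finset.mul_sum, ← Finset.sum_add_distrib]
    refine Finset.sum_le_sum fun e _ => ?_
    rw [Finset.mul_sum, Finset.mul_sum, ← Finset.sum_add_distrib]
    refine Finset.sum_le_sum fun u _ => ?_
    nlinarith [sq_nonneg ((F (sh u e) - F e) - (G (sh u e) - G e))]
  linarith [h S, h' S]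

lemma OB.smul {l : ℕ} {F : Bnd → ℝ} {M : ℝ} (h : OB l F M) (c : ℝ) :
    OB l (fun e => c * F e) (c ^ 2 * M) := fun S => by
  have h1 : osc l S (fun e => c * F e) = c ^ 2 * osc l S F := by
    unfold osc
    rw [Finset.mul_sum]
    refine Finset.sum_congr rfl fun e _ => ?_
    rw [Finset.mul_sum]
    refine Finset.sum_congr rfl fun u _ => ?_
    ring
  rw [h1]
  exact mul_le_mul_of_nonneg_left (h S) (sq_nonneg _)

lemma OB.sub {l : ℕ} {F G : Bnd → ℝ} {M N : ℝ} (h : OB l F M) (h' : OB l G N) :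
    OB l (fun e => F e - G e) (2 * M + 2 * N) := by
  have h1 := h.add (h'.smul (-1))
  have e1 : (fun e => F e + -1 * G e) = fun e => F e - G e := by funext e; ring
  rw [e1] at h1
  exact h1.le (by norm_num)

lemma SBd.mir {F : Bnd → ℝ} {M : ℝ} (h : SBd F M) (r : ℕ) : SBd (mB r F) M := fun e => by
  rw [H565.abs_mB]
  exact h _

lemma SBd.add {F G : Bnd → ℝ} {M N : ℝ} (h : SBd F M) (h' : SBd G N) :
    SBd (fun e => F e + G e) (M + N) := fun e =>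
  (abs_add_le _ _).trans (add_le_add (h e) (h' e))

lemma SBd.sub {F G : Bnd → ℝ} {M N : ℝ} (h : SBd F M) (h' : SBd G N) :
    SBd (fun e => F e - G e) (M + N) := fun e =>
  (abs_sub _ _).trans (add_le_add (h e) (h' e))

lemma SBd.le {F : Bnd → ℝ} {M N : ℝ} (h : SBd F M) (h' : M ≤ N) : SBd F N := fun e =>
  (h e).trans h'

/-! ### oscillation -/

/-- the oscillation along `u` is bounded uniformly in the outer radius -/
def Ok (q : ℕ) (c₂ c₁ : ℝ) (n0 : ℕ) (u : Z2) : Prop :=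
  ∃ C : ℝ, ∀ A : ℝ, 0 < A → ∀ S : Finset Bnd,
    ∑ e ∈ S, (Kf q c₂ c₁ (clp n0 A) (sh u e) - Kf q c₂ c₁ (clp n0 A) e) ^ 2 ≤ C

theorem ok_unit {q : ℕ} (hq : 1 ≤ q) (c₂ c₁ : ℝ) {n0 : ℕ} (hn : 8 ≤ n0) {v : Z2} (hv : IsU v) :
    Ok q c₂ c₁ n0 v := by
  classical
  refine ⟨2 * (2 * (|c₂| + |c₁|) ^ 2 * ((100 + 32 * (1 + ((n0 : ℝ) + 3) ^ 2) ^ 2) * s0 ^ 2 +
    32 * (148 * s0)) + 32 * (|c₂| + |c₁|) ^ 2 * (2 * s0)), fun A hA S => ?_⟩
  refine H376.sum_bnd_le (fun P d => K_shift c₂ c₁ hn hA hv P d) (fun e => sq_nonneg _) ?_ S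
  intro d T
  rw [sum_add_distrib, ← mul_sum, ← mul_sum, sum_add_distrib, ← mul_sum, ← mul_sum]
  have h1 := H376.sum_prod_le T
  have h2 := H376.near_sum hA T
  have h3 := H376.chg_sum hq hv d T
  have m1 : (0 : ℝ) ≤ 100 + 32 * (1 + ((n0 : ℝ) + 3) ^ 2) ^ 2 := by positivity
  have m2 : 0 ≤ 2 * (|c₂| + |c₁|) ^ 2 := by positivity
  have m3 : 0 ≤ 32 * (|c₂| + |c₁|) ^ 2 := by positivity
  have k1 := mul_le_mul_of_nonneg_left h1 m1
  have k2 := mul_le_mul_of_nonneg_left h2 (by norm_num : (0 : ℝ) ≤ 32)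
  have k3 := mul_le_mul_of_nonneg_left h3 m3
  have k4 := mul_le_mul_of_nonneg_left (add_le_add k1 k2) m2
  exact add_le_add k4 k3

theorem ok_zero (q : ℕ) (c₂ c₁ : ℝ) (n0 : ℕ) : Ok q c₂ c₁ n0 0 := by
  refine ⟨0, fun A _ S => ?_⟩
  refine le_of_eq (sum_eq_zero fun e _ => ?_)
  have : sh 0 e = e := by unfold sh; rw [add_zero]
  rw [this, sub_self]
  norm_num

theorem ok_add {q : ℕ} {c₂ c₁ : ℝ} {n0 : ℕ} {u v : Z2} (hu : Ok q c₂ c₁ n0 u)
    (hv : Ok q c₂ c₁ n0 v) : Ok q c₂ c₁ n0 (u + v) := by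
  classical
  obtain ⟨C, hC⟩ := hu
  obtain ⟨C', hC'⟩ := hv
  refine ⟨2 * C + 2 * C', fun A hA S => ?_⟩
  set K := Kf q c₂ c₁ (clp n0 A) with hK
  have h1 := hC A hA S
  have h2 := hC' A hA (S.image (sh u))
  rw [← hK] at h1 h2
  rw [sum_image (fun x _ y _ h => H376.sh_inj u h)] at h2
  calc ∑ e ∈ S, (K (sh (u + v) e) - K e) ^ 2
      ≤ ∑ e ∈ S, (2 * (K (sh u e) - K e) ^ 2 + 2 * (K (sh v (sh u e)) - K (sh u e)) ^ 2) := by
        refine sum_le_sum fun e _ => ?_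
        rw [H376.sh_add]
        nlinarith [sq_nonneg ((K (sh u e) - K e) - (K (sh v (sh u e)) - K (sh u e)))]
    _ = 2 * ∑ e ∈ S, (K (sh u e) - K e) ^ 2 +
          2 * ∑ e ∈ S, (K (sh v (sh u e)) - K (sh u e)) ^ 2 := by
        rw [sum_add_distrib, ← mul_sum, ← mul_sum]
    _ ≤ 2 * C + 2 * C' := by linarith

theorem ok_neg {q : ℕ} {c₂ c₁ : ℝ} {n0 : ℕ} {u : Z2} (hu : Ok q c₂ c₁ n0 u) :
    Ok q c₂ c₁ n0 (-u) := by
  classical
  obtain ⟨C, hC⟩ := hu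
  refine ⟨C, fun A hA S => ?_⟩
  set K := Kf q c₂ c₁ (clp n0 A) with hK
  have h2 := hC A hA (S.image (sh (-u)))
  rw [← hK] at h2
  rw [sum_image (fun x _ y _ h => H376.sh_inj (-u) h)] at h2
  refine (le_of_eq ?_).trans h2
  refine sum_congr rfl fun e _ => ?_
  have : sh u (sh (-u) e) = e := by
    rw [← H376.sh_add]
    unfold sh
    simp
  rw [this]
  ring

theorem ok_zsmul {q : ℕ} {c₂ c₁ : ℝ} {n0 : ℕ} {u : Z2} (hu : Ok q c₂ c₁ n0 u) (a : ℤ) :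
    Ok q c₂ c₁ n0 (a • u) := by
  induction a using Int.induction_on with
  | zero => rw [zero_smul]; exact ok_zero _ _ _ _
  | succ i ih => rw [add_smul, one_smul]; exact ok_add ih hu
  | pred i ih => rw [sub_smul, one_smul, sub_eq_add_neg]; exact ok_add ih (ok_neg hu)

theorem ok_all {q : ℕ} (hq : 1 ≤ q) (c₂ c₁ : ℝ) {n0 : ℕ} (hn : 8 ≤ n0) (u : Z2) :
    Ok q c₂ c₁ n0 u := by
  have h1 := ok_zsmul (ok_unit hq c₂ c₁ hn (v := (1, 0)) (Or.inl rfl)) u.1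
  have h2 := ok_zsmul (ok_unit hq c₂ c₁ hn (v := (0, 1)) (Or.inr rfl)) u.2
  have h3 := ok_add h1 h2
  have e : u.1 • ((1, 0) : Z2) + u.2 • ((0, 1) : Z2) = u := by
    ext <;> simp
  rwa [e] at h3

/-- the oscillation of the tilt field is bounded, uniformly in the outer radius -/
theorem osc_Kf (q : ℕ) (c₂ c₁ : ℝ) (n0 l : ℕ) (hq : 1 ≤ q) (hn : 8 ≤ n0) :
    ∃ C : ℝ, ∀ A : ℝ, 0 < A → OB l (Kf q c₂ c₁ (clp n0 A)) C := by
  choose C hC using fun u => ok_all hq c₂ c₁ hn u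
  refine ⟨∑ u ∈ Finset.Icc (-(l : ℤ), -(l : ℤ)) ((l : ℤ), (l : ℤ)), C u, fun A hA S => ?_⟩
  unfold osc
  rw [sum_comm]
  exact sum_le_sum fun u _ => hC u A hA S

/-- the tilt field is small, uniformly in the outer radius -/
theorem sup_Kf (c₂ c₁ η : ℝ) (hη : 0 < η) : ∃ n1 : ℕ, ∀ n0 ≥ n1, ∀ (q : ℕ) (A : ℝ),
    SBd (Kf q c₂ c₁ (clp n0 A)) η := by
  obtain ⟨m, hm⟩ := exists_nat_gt ((|c₂| + |c₁|) / η)
  refine ⟨m + 8, fun n0 hn q A e => ?_⟩
  have hn8 : 8 ≤ n0 := by omega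
  have hnm : (m : ℝ) + 8 ≤ n0 := by exact_mod_cast hn
  have hM0 : 0 ≤ |c₂| + |c₁| := by positivity
  obtain ⟨P, d⟩ := e
  unfold Kf
  rw [gs_eq, abs_mul]
  have hk := kf_abs q c₂ c₁ (P, d)
  rcases H376.D_abs hn8 A (isU_ud d) P with h | ⟨h1, h2⟩
  · rw [h, abs_zero, mul_zero]
    exact hη.le
  · have hm0 : (0 : ℝ) ≤ m := by positivity
    have h3 : (m : ℝ) + 6 ≤ nr P - 1 := by linarith
    have h4 : 1 / (nr P - 1) ≤ 1 / ((m : ℝ) + 6) := one_div_le_one_div_of_le (by linarith) h3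
    calc |kf q c₂ c₁ (P, d)| * |H376.psi n0 A (P + ud d) - H376.psi n0 A P|
        ≤ (|c₂| + |c₁|) * (1 / ((m : ℝ) + 6)) :=
          mul_le_mul hk (h2.trans h4) (abs_nonneg _) hM0
      _ ≤ η := by
          rw [mul_one_div, div_le_iff₀ (by linarith)]
          rw [div_lt_iff₀ hη] at hm
          nlinarith

/-! ### energy -/

/-- the profile with the smaller outer radius is a contraction of the one with the larger -/
theorem clp_contr {a A A' : ℝ} (hA : 0 < A) (h : A ≤ A') (t s : ℝ) :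
    |clp a A t - clp a A s| ≤ |clp a A' t - clp a A' s| := by
  have h1 : Real.log A ≤ Real.log A' := Real.log_le_log hA h
  have key : ∀ t, clp a A t = max (Real.log a) (min (clp a A' t) (Real.log A)) := by
    intro t
    unfold clp
    rcases le_total (Real.log a) (Real.log A) with h2 | h2
    · rw [min_max_distrib_right, min_eq_left h2, min_assoc, min_eq_right h1, ← max_assoc,
        max_self]
    · have h3 : ∀ x, max (Real.log a) (min x (Real.log A)) = Real.log a := fun x =>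
        max_eq_left ((min_le_right _ _).trans h2)
      rw [h3, h3]
  rw [key t, key s]
  refine (abs_max_sub_max_le_abs' _ _ _).trans ?_
  exact abs_min_sub_min_le_abs' _ _ _
where
  abs_max_sub_max_le_abs' (x y c : ℝ) : |max c x - max c y| ≤ |x - y| := by
    rw [max_comm c x, max_comm c y]
    exact abs_max_sub_max_le_abs x y c
  abs_min_sub_min_le_abs' (x y c : ℝ) : |min x c - min y c| ≤ |x - y| := by
    exact abs_min_sub_min_le_max x c y c |>.trans (by simp)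

theorem Kf_sq_le (q : ℕ) (c₂ c₁ : ℝ) {a A A' : ℝ} (hA : 0 < A) (h : A ≤ A') (e : Bnd) :
    Kf q c₂ c₁ (clp a A) e ^ 2 ≤ Kf q c₂ c₁ (clp a A') e ^ 2 := by
  unfold Kf
  rw [mul_pow, mul_pow]
  refine mul_le_mul_of_nonneg_left ?_ (sq_nonneg _)
  unfold gs
  rw [← sq_abs, ← sq_abs (clp a A' _ - _)]
  exact pow_le_pow_left₀ (abs_nonneg _) (clp_contr hA h _ _) 2

/-- energy of the tilt field with an outer radius at most `r / 4` -/
theorem en_Kf (q : ℕ) (c₂ c₁ : ℝ) (n0 : ℕ) (hq : 1 ≤ q) (hn : 8 ≤ n0) :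
    ∃ C : ℝ, ∀ (r : ℕ) (A : ℝ), 1 ≤ r → 0 < A → A ≤ (r : ℝ) / 4 →
      EP (fun _ => True) (Kf q c₂ c₁ (clp n0 A))
        ((c₂ ^ 2 * ang q + c₁ ^ 2 * (2 * Real.pi - ang q)) * Real.log r + C) := by
  obtain ⟨C, hC⟩ := H775.stmtEN q c₂ c₁ n0 hq hn
  exact ⟨C, fun r A hr hA hA' S _ =>
    (Finset.sum_le_sum fun e _ => Kf_sq_le q c₂ c₁ hA hA' e).trans (hC r hr S)⟩

/-! ### bonds inside the slit -/

/-- a box of bonds -/
noncomputable def Xb (m : ℤ) : Finset Bnd := (Finset.Icc (-m) m ×ˢ Finset.Icc (-m) m) ×ˢ Finset.univ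

lemma mem_Xb {m : ℤ} {e : Bnd} : e ∈ Xb m ↔ (-m ≤ e.1.1 ∧ e.1.1 ≤ m) ∧ -m ≤ e.1.2 ∧ e.1.2 ≤ m := by
  unfold Xb
  rw [Finset.mem_product, Finset.mem_product, Finset.mem_Icc, Finset.mem_Icc]
  exact and_iff_left (Finset.mem_univ _)

open Vale.Agent.P159.T1.H775 in
/-- the energy of the tilt field on the bonds inside the slit is bounded -/
theorem slit_Kf (q : ℕ) (c₂ c₁ : ℝ) (n0 : ℕ) : ∃ C : ℝ, 0 ≤ C ∧ ∀ (A : ℝ) (S : Finset Bnd),
    (∀ e ∈ S, e.2 = true ∧ e.1.2 = -1 ∧ e.1.1 < 0) →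
    ∑ e ∈ S, Kf q c₂ c₁ (clp n0 A) e ^ 2 ≤ C := by
  classical
  set M : ℝ := (|c₂| + |c₁|) ^ 2 with hM
  set Cx : ℝ := ∑' n : ℕ, 4 * (1 / (n : ℝ) ^ 2) with hCx
  have hCx0 : 0 ≤ Cx := tsum_nonneg fun n => by positivity
  refine ⟨M * (∑ e ∈ Xb 12, gs tc e ^ 2 + Cx), mul_nonneg (sq_nonneg _) (add_nonneg
    (Finset.sum_nonneg fun _ _ => sq_nonneg _) hCx0), fun A S hS => ?_⟩
  have h1 : ∀ e ∈ S, Kf q c₂ c₁ (clp n0 A) e ^ 2 ≤ M * gs tc e ^ 2 := by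
    intro e _
    unfold Kf
    rw [mul_pow]
    refine mul_le_mul ?_ (gs_clp_sq _ _ _) (sq_nonneg _) (sq_nonneg _)
    rw [← sq_abs]
    exact pow_le_pow_left₀ (abs_nonneg _) (kf_abs _ _ _ _) 2
  refine (Finset.sum_le_sum h1).trans ?_
  rw [← Finset.mul_sum]
  refine mul_le_mul_of_nonneg_left ?_ (sq_nonneg _)
  rw [← Finset.sum_filter_add_sum_filter_not S (fun e => ‖zc e.1‖ < 12)]
  refine add_le_add ?_ ?_
  · refine Finset.sum_le_sum_of_subset_of_nonneg (Finset.subset_iff.2 fun e he => ?_)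
      fun _ _ _ => sq_nonneg _
    have he2 : ‖zc e.1‖ < 12 := (Finset.mem_filter.1 he).2
    have a1 := (Complex.abs_re_le_norm (zc e.1)).trans he2.le
    have a2 := (Complex.abs_im_le_norm (zc e.1)).trans he2.le
    have b1 : |(e.1.1 : ℝ)| ≤ 12 := a1
    have b2 : |(e.1.2 : ℝ)| ≤ 12 := a2
    rw [abs_le] at b1 b2
    have c1 : (-12 : ℤ) ≤ e.1.1 := by exact_mod_cast b1.1
    have c2 : e.1.1 ≤ (12 : ℤ) := by exact_mod_cast b1.2
    have c3 : (-12 : ℤ) ≤ e.1.2 := by exact_mod_cast b2.1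
    have c4 : e.1.2 ≤ (12 : ℤ) := by exact_mod_cast b2.2
    rw [mem_Xb]
    exact ⟨⟨c1, c2⟩, c3, c4⟩
  · refine sum_exc _ fun e he => ?_
    have he2 := Finset.mem_filter.1 he
    exact ⟨not_lt.1 he2.2, hS e he2.1⟩

end Vale.Agent.P159.T1.S.H407
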