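import Vale.Agent.P159.T1.S.Stmts
import Vale.Agent.P159.T1.S.H407.BeTools
import Vale.Agent.P159.T1.D.H407.Arm1

/-!
Row S.BE of the sharp stage (P159): the explicit fields.
-/

open Finset

namespace Vale.Agent.P159.T1.S.H407

open Vale.Agent.P159.T1.D Vale.Agent.P159.T1.S
open Vale.Agent.P159.T1.H565 (Kf kf mb Bb)

/-! ### elementary facts on the parameters -/

lemma ang_pos' {q : ℕ} (hq : 1 ≤ q) : 0 < ang q := H565.ang_pos hq

lemma aq_lt {q : ℕ} (hq : 1 ≤ q) : aq q < 1 := by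
  unfold aq
  have := ang_pos' hq
  rw [div_lt_one (by positivity)]
  linarith

lemma aq_pos (q : ℕ) : 0 < aq q := by
  unfold aq
  have := H565.ang_lt q
  exact div_pos (by linarith) (by positivity)

lemma ro_V (Y V V' : ℝ) (q : ℕ) (Γ : ℝ → ℝ) (f : Z2) :
    ro Y (V - V') q Γ f = ro Y V q Γ f - ro Y V' q Γ f := by
  unfold ro Bf cf
  split_ifs <;> ring

/-- `ρ'` of one tip -/
noncomputable def rm (Y V : ℝ) (q n0 r : ℕ) (c1 : ℝ) (f : Z2) : ℝ :=
  ro Y (V - aq q) q (clp n0 (c1 * r)) f +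
    ro Y V q (fun τ => clp n0 ((r : ℝ) / 4) τ - clp n0 (c1 * r) τ) f

lemma rp_eq (Y V : ℝ) (q n0 r : ℕ) (κ x y s c1 : ℝ) (f : Z2) :
    rp Y V q n0 r κ x y s c1 f = rm Y V q n0 r c1 f + rm Y V q n0 r c1 (mir r f) +
      bump r κ x y s f + bump r κ x y s (mir r f) := by
  have key : ∀ g, rm Y V q n0 r c1 g = ro Y V q (clp n0 ((r : ℝ) / 4)) g -
      ro Y (aq q) q (clp n0 (c1 * r)) g := by
    intro g
    unfold rm
    rw [ro_V]
    have h1 := ro_sub (Y := Y) (V := V) (q := q) (Γ := clp n0 ((r : ℝ) / 4))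
      (Γ' := clp n0 (c1 * r)) g
    have h2 : (clp n0 ((r : ℝ) / 4) - clp n0 (c1 * r)) =
        fun τ => clp n0 ((r : ℝ) / 4) τ - clp n0 (c1 * r) τ := rfl
    rw [h2] at h1
    rw [h1]
    ring
  rw [key, key]
  unfold rp rz D.rho
  ring

lemma clp_diff_mono {a A A' : ℝ} (h0 : 0 < a) (h1 : a ≤ A) (h2 : A ≤ A') :
    Monotone fun τ => clp a A' τ - clp a A τ := by
  have e1 : Real.log a ≤ Real.log A := Real.log_le_log h0 h1
  have e2 : Real.log A ≤ Real.log A' := Real.log_le_log (h0.trans_le h1) h2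
  intro t u htu
  simp only [clp]
  rcases le_total t (Real.log A) with h3 | h3
  · have h4 : max (Real.log a) (min t (Real.log A')) - max (Real.log a) (min t (Real.log A)) = 0 := by
      rw [min_eq_left h3, min_eq_left (h3.trans e2), sub_self]
    rw [h4]
    have h5 : max (Real.log a) (min u (Real.log A)) ≤ max (Real.log a) (min u (Real.log A')) :=
      max_le_max le_rfl (min_le_min le_rfl e2)
    linarith
  · have h4 : Real.log A ≤ u := h3.trans htu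
    rw [min_eq_right h3, min_eq_right h4]
    have h5 : max (Real.log a) (min t (Real.log A')) ≤ max (Real.log a) (min u (Real.log A')) :=
      max_le_max le_rfl (min_le_min htu le_rfl)
    linarith

lemma rp_nonneg {Y V : ℝ} {q n0 r : ℕ} {κ x y s c1 : ℝ} (hY : 0 < Y) (hV : 1 < V)
    (hq : 1 ≤ q) (hκ : 0 ≤ κ) (hn : 1 ≤ n0) (h1 : (n0 : ℝ) ≤ c1 * r) (h2 : c1 * r ≤ (r : ℝ) / 4)
    (f : Z2) : 0 ≤ rp Y V q n0 r κ x y s c1 f := by
  rw [rp_eq]
  have hn' : (0 : ℝ) < n0 := by exact_mod_cast hn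
  have hV' : 0 < V - aq q := by have := aq_lt hq; linarith
  have h3 : Monotone (clp n0 (c1 * r)) := fun t u htu =>
    max_le_max le_rfl (min_le_min htu le_rfl)
  have key : ∀ g, 0 ≤ rm Y V q n0 r c1 g := fun g =>
    add_nonneg (ro_nonneg hY hV' hq h3 g)
      (ro_nonneg hY (by linarith) hq (clp_diff_mono hn' h1 h2) g)
  have h4 := key f
  have h5 := key (mir r f)
  have h6 := H565.bump_nonneg (r := r) (x := x) (y := y) (s := s) hκ f
  have h7 := H565.bump_nonneg (r := r) (x := x) (y := y) (s := s) hκ (mir r f)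
  linarith

/-! ### divergence -/

lemma isDiv_mir {R r : ℕ} {B : Bnd → ℝ} {ρ : Z2 → ℝ} (h : IsDiv (SB R r) B ρ) :
    IsDiv (SB R r) (H565.mB r B) (fun f => ρ (mir r f)) := H565.isDiv_mB h

lemma isDiv_Be {Y V : ℝ} {q n0 R r : ℕ} {κ x y s c1 : ℝ} (hq : 1 ≤ q) (hr : 1 ≤ r)
    (hs : 0 < s) (hx : s < x) (hx1 : s + x < 1) (hy : s < y) (hy1 : s + y < 1) :
    IsDiv (SB R r) (Be Y V q n0 r κ x y s c1) (rp Y V q n0 r κ x y s c1) := by
  have h1 : IsDiv (SB R r) (Bm Y V q n0 r c1) (rm Y V q n0 r c1) := by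
    have a1 := isDiv_Bf (Y := Y) (V := V - aq q) (Γ := clp n0 (c1 * r)) R r hq
    have a2 := isDiv_Bf (Y := Y) (V := V)
      (Γ := fun τ => clp n0 ((r : ℝ) / 4) τ - clp n0 (c1 * r) τ) R r hq
    exact a1.add a2
  have h2 := isDiv_mir h1
  have h3 := H565.isDiv_Bb (κ := κ) hs hr hx hx1 hy hy1 R
  have h4 := isDiv_mir h3
  intro f hf
  have b1 := h1 f hf
  have b2 := h2 f hf
  have b3 := h3 f hf
  have b4 := h4 f hf
  rw [rp_eq]
  unfold Be
  linarith

lemma isDiv_Bz {Y : ℝ} {q n0 R r : ℕ} {c1 : ℝ} (hY : 0 < Y) (hq : 1 ≤ q) :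
    IsDiv (SB R r) (Bz Y q n0 r c1) (rz Y q n0 r c1) := by
  have hd := ang_pos' hq
  have hd' : 0 < 2 * Real.pi - ang q := by linarith [H565.ang_lt q]
  have hp := Real.pi_pos
  have h := H565.isDiv_Kf (Y := Y) (V := aq q) (R := R) (r := r) hq (clp n0 (c1 * r))
    (1 / (2 * Real.pi * Y))
  have e1 : aq q / (Y * ang q) + 1 / (2 * Real.pi * Y) = 1 / ang q * (1 / Y) := by
    unfold aq
    field_simp
    ring
  have e2 : -(aq q / (Y * (2 * Real.pi - ang q))) + 1 / (2 * Real.pi * Y) = 0 := by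
    unfold aq
    field_simp
    ring
  rw [e1, e2] at h
  have e3 : Kf q (1 / ang q * (1 / Y)) 0 (clp n0 (c1 * r)) =
      fun e => Kz q n0 r c1 e / Y := by
    funext e
    unfold Kz Kf kf
    split_ifs <;> ring
  rw [e3] at h
  have h2 := isDiv_mir h
  have e4 : H565.mB r (fun e => Kz q n0 r c1 e / Y) = fun e => H565.mB r (Kz q n0 r c1) e / Y := by
    funext e
    unfold H565.mB
    split_ifs <;> ring
  rw [e4] at h2
  intro f hf
  have b1 := h f hf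
  have b2 := h2 f hf
  simp only at b1 b2
  unfold Bz rz
  rw [← b1, ← b2]
  ring

/-! ### bonds inside the slit -/

/-- bonds inside the slit -/
def Ins (r : ℕ) (e : Bnd) : Prop := e.2 = true ∧ e.1.2 = -1 ∧ (e.1.1 < 0 ∨ (r : ℤ) + 1 ≤ e.1.1)

lemma ins_of {r : ℕ} (hr : 1 ≤ r) {e : Bnd} (h : lf e ∈ slit r ∧ rt e ∈ slit r) : Ins r e := by
  obtain ⟨⟨i, j⟩, c⟩ := e
  obtain ⟨h1, h2⟩ := h
  cases c
  · simp only [lf, rt, slit, Set.mem_ofPred_eq, Bool.false_eq_true, if_false] at h1 h2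
    omega
  · simp only [lf, rt, slit, Set.mem_ofPred_eq, if_true] at h1 h2
    refine ⟨rfl, h2.1, ?_⟩
    simp only
    omega

lemma ins_mb {r : ℕ} {e : Bnd} (h : Ins r e) : Ins r (mb r e) := by
  obtain ⟨⟨i, j⟩, c⟩ := e
  obtain ⟨h1, h2, h3⟩ := h
  simp only at h1 h2 h3
  subst h1
  refine ⟨rfl, h2, ?_⟩
  simp only [mb, if_true]
  omega

lemma Kf_small' {q : ℕ} {c₂ c₁ a A : ℝ} {r : ℕ} (hr : 3 ≤ r) (hA : 0 < A) (hA' : A ≤ (r : ℝ) / 4)
    {e : Bnd} (he : ¬ (|e.1.1| ≤ r ∧ |e.1.2| ≤ r)) : Kf q c₂ c₁ (clp a A) e = 0 := by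
  have h1 := Kf_sq_le q c₂ c₁ (a := a) hA hA' e
  rw [H565.Kf_small hr he] at h1
  have h2 : Kf q c₂ c₁ (clp a A) e ^ 2 = 0 := le_antisymm (by simpa using h1) (sq_nonneg _)
  exact pow_eq_zero_iff (two_ne_zero) |>.1 h2

lemma ins_Kf (q : ℕ) (c₂ c₁ : ℝ) (n0 : ℕ) : ∃ C : ℝ, 0 ≤ C ∧ ∀ (r : ℕ) (A : ℝ), 3 ≤ r → 0 < A →
    A ≤ (r : ℝ) / 4 → EP (Ins r) (Kf q c₂ c₁ (clp n0 A)) C := by
  classical
  obtain ⟨C, hC0, hC⟩ := slit_Kf q c₂ c₁ n0
  refine ⟨C, hC0, fun r A hr hA hA' S hS => ?_⟩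
  rw [← Finset.sum_filter_add_sum_filter_not S (fun e => e.1.1 < 0)]
  have h1 := hC A (S.filter fun e => e.1.1 < 0) fun e he => by
    have he' := Finset.mem_filter.1 he
    obtain ⟨a1, a2, _⟩ := hS e he'.1
    exact ⟨a1, a2, he'.2⟩
  have h2 : ∑ e ∈ S.filter (fun e => ¬ e.1.1 < 0), Kf q c₂ c₁ (clp n0 A) e ^ 2 = 0 := by
    refine Finset.sum_eq_zero fun e he => ?_
    have he' := Finset.mem_filter.1 he
    obtain ⟨a1, a2, a3⟩ := hS e he'.1
    rw [Kf_small' hr hA hA']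
    · norm_num
    · rintro ⟨b1, _⟩
      rw [abs_le] at b1
      have := he'.2
      omega
  rw [h2]
  linarith

/-! ### the three pieces of `Be` -/

lemma Bm_eq (Y V : ℝ) (q n0 r : ℕ) (c1 : ℝ) : Bm Y V q n0 r c1 = fun e =>
    Kf q ((V - aq q) / (Y * ang q)) (-((V - aq q) / (Y * (2 * Real.pi - ang q))))
      (clp n0 (c1 * r)) e +
    (Kf q (V / (Y * ang q)) (-(V / (Y * (2 * Real.pi - ang q)))) (clp n0 ((r : ℝ) / 4)) e -
      Kf q (V / (Y * ang q)) (-(V / (Y * (2 * Real.pi - ang q)))) (clp n0 (c1 * r)) e) := by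
  funext e
  unfold Bm
  rw [H565.Bf_eq, H565.Bf_eq]
  unfold Kf gs
  ring

lemma Bb_vert {r : ℕ} {κ x y s : ℝ} {e : Bnd} (h : e.2 = true) : Bb r κ x y s e = 0 := by
  unfold Bb
  rw [if_neg]
  rintro ⟨h1, _⟩
  rw [h] at h1
  exact absurd h1 (by simp)

/-- the window -/
lemma par_facts {q : ℕ} {κ x y s c1 : ℝ} (h : Par q κ x y s c1) :
    s < x ∧ s + x < 1 ∧ s + y < 1 ∧ c1 < 1 / 8 := by
  obtain ⟨hq, hκ, hs, hy, hx4, hqy, hc, hcx⟩ := h
  have hq' : (1 : ℝ) ≤ q := by exact_mod_cast hq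
  have h1 : y + s < x - s := by nlinarith
  refine ⟨by linarith, by linarith, by linarith, by linarith⟩

/-- **row S.BE** -/
theorem stmtBe : StmtBe := by
  intro Y V η κ x y s c1 q l hY hV hη hP
  obtain ⟨hxs, hx1, hy1, hc8⟩ := par_facts hP
  obtain ⟨hq, hκ, hs, hy, hx4, hqy, hc, hcx⟩ := hP
  obtain ⟨a2, ha2⟩ : ∃ a2, a2 = (V - aq q) / (Y * ang q) := ⟨_, rfl⟩
  obtain ⟨a1, ha1⟩ : ∃ a1, a1 = -((V - aq q) / (Y * (2 * Real.pi - ang q))) := ⟨_, rfl⟩
  obtain ⟨b2, hb2⟩ : ∃ b2, b2 = V / (Y * ang q) := ⟨_, rfl⟩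
  obtain ⟨b1, hb1⟩ : ∃ b1, b1 = -(V / (Y * (2 * Real.pi - ang q))) := ⟨_, rfl⟩
  have hd0 := ang_pos' hq
  obtain ⟨n1, hn1⟩ := sup_Kf a2 a1 (η / 8) (by positivity)
  obtain ⟨n2, hn2⟩ := sup_Kf b2 b1 (η / 8) (by positivity)
  obtain ⟨n3, hn3⟩ := sup_Kf (1 / ang q) 0 (Y * η / 2) (by positivity)
  obtain ⟨n4, hn4⟩ := exists_nat_ge (8 * (κ * s ^ 8) / η)
  refine ⟨n1 + n2 + n3 + n4 + 8, fun n0 hn => ?_⟩
  obtain ⟨O1, hO1⟩ := osc_Kf q a2 a1 n0 l hq (by omega)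
  obtain ⟨O2, hO2⟩ := osc_Kf q b2 b1 n0 l hq (by omega)
  obtain ⟨O3, hO3⟩ := osc_Kf q (1 / ang q) 0 n0 l hq (by omega)
  obtain ⟨C1, hC1⟩ := en_Kf q (1 / ang q) 0 n0 hq (by omega)
  set CB : ℝ := (κ * s ^ 8) ^ 2 with hCB
  set OBb : ℝ := ((2 * l + 1) ^ 2 : ℕ) * (4 * CB) with hOBb
  set T1 : ℝ := 16 * (2 * O1 + 8 * O2) + 6 * OBb with hT1
  set T2 : ℝ := (1 / Y) ^ 2 * (2 * O3 + 2 * O3) with hT2
  have hn0' : (8 : ℝ) ≤ n0 := by
    have : 8 ≤ n0 := by omega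
    exact_mod_cast this
  refine ⟨max T1 (max T2 (2 * C1)), fun R r hr hnr => ?_⟩
  have hr8 : 8 ≤ r := by omega
  have hr' : (8 : ℝ) ≤ r := by exact_mod_cast hr8
  have hA : 0 < c1 * r := by linarith
  have hA4 : c1 * r ≤ (r : ℝ) / 4 := by nlinarith
  have h4 : (0 : ℝ) < (r : ℝ) / 4 := by linarith
  have hBm : Bm Y V q n0 r c1 = fun e => Kf q a2 a1 (clp n0 (c1 * r)) e +
      (Kf q b2 b1 (clp n0 ((r : ℝ) / 4)) e - Kf q b2 b1 (clp n0 (c1 * r)) e) := by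
    rw [ha2, ha1, hb2, hb1]
    exact Bm_eq Y V q n0 r c1
  refine ⟨isDiv_Be hq (by omega) hs hxs hx1 hy hy1, isDiv_Bz hY hq,
    rp_nonneg hY hV hq hκ.le (by omega) hnr hA4, ?_, ?_, ?_, ?_, ?_⟩
  · -- sup of `Be`
    have k1 := hn1 n0 (by omega) q (c1 * r)
    have k2 := hn2 n0 (by omega) q ((r : ℝ) / 4)
    have k3 := hn2 n0 (by omega) q (c1 * r)
    have m := k1.add (k2.sub k3)
    rw [← hBm] at m
    have kb : SBd (Bb r κ x y s) (η / 8) := fun e => by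
      refine (H565.abs_Bb_le (r := r) (κ := κ) (x := x) (y := y) (s := s) hκ.le
        (by omega) e).trans ?_
      rw [div_le_div_iff₀ (by linarith) (by norm_num)]
      have h5 : 8 * (κ * s ^ 8) ≤ (n4 : ℝ) * η := by
        rw [div_le_iff₀ hη] at hn4
        exact hn4
      have h6 : (n4 : ℝ) ≤ r := by
        have : n4 ≤ r := by omega
        exact_mod_cast this
      have h7 := mul_le_mul_of_nonneg_right h6 hη.le
      linarith
    have tot := ((m.add (m.mir r)).add kb).add (kb.mir r)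
    exact tot.le (by linarith)
  · -- sup of `Bz`
    have k := hn3 n0 (by omega) q (c1 * r)
    have tot := k.add (k.mir r)
    intro e
    unfold Bz
    rw [abs_div, abs_of_pos hY, div_le_iff₀ hY]
    refine (tot e).trans (le_of_eq ?_)
    ring
  · -- osc of `Be`
    intro S
    have k1 := hO1 (c1 * r) hA
    have k2 := hO2 ((r : ℝ) / 4) h4
    have k3 := hO2 (c1 * r) hA
    have m := k1.add (k2.sub k3)
    rw [← hBm] at m
    have kb : OB l (Bb r κ x y s) OBb := fun S => H565.osc_le_energy (l := l) (S := S)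
      (fun S => H565.sum_Bb_sq (y := y) hκ.le hs (by omega : 1 ≤ r) hxs hx1 S)
    have tot := ((m.add (m.mir r)).add kb).add (kb.mir r)
    refine (tot S).trans ((le_of_eq ?_).trans (le_max_left _ _))
    rw [hT1]
    ring
  · -- osc of `Bz`
    intro S
    have k := hO3 (c1 * r) hA
    have tot := (k.add (k.mir r)).smul (1 / Y)
    have e1 : (fun e => 1 / Y * (Kf q (1 / ang q) 0 (clp n0 (c1 * r)) e +
        H565.mB r (Kf q (1 / ang q) 0 (clp n0 (c1 * r))) e)) = Bz Y q n0 r c1 := by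
      funext e
      unfold Bz Kz
      rw [one_div_mul_eq_div]
    rw [e1] at tot
    exact (tot S).trans ((le_max_left _ _).trans (le_max_right _ _))
  · -- energy of `Bz`
    intro S
    set K := Kf q (1 / ang q) 0 (clp n0 (c1 * r)) with hK
    have hz : ∀ e, (Y * Bz Y q n0 r c1 e) ^ 2 = K e ^ 2 + H565.mB r K e ^ 2 := by
      intro e
      have h5 : K e * H565.mB r K e = 0 := by
        have h6 := H565.Kf_mul_mB (q := q) (c₂ := 1 / ang q) (c₁ := 0) (a := (n0 : ℝ))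
          (by omega : 3 ≤ r) e
        rcases mul_eq_zero.1 h6 with h7 | h7
        · have h8 := Kf_sq_le q (1 / ang q) 0 (a := (n0 : ℝ)) hA hA4 e
          rw [h7, zero_pow two_ne_zero] at h8
          have h9 : K e ^ 2 = 0 := le_antisymm h8 (sq_nonneg _)
          rw [pow_eq_zero_iff two_ne_zero |>.1 h9, zero_mul]
        · have h8 := Kf_sq_le q (1 / ang q) 0 (a := (n0 : ℝ)) hA hA4 (mb r e)
          have h10 := H565.abs_mB r (Kf q (1 / ang q) 0 (clp n0 ((r : ℝ) / 4))) e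
          rw [h7, abs_zero] at h10
          rw [abs_eq_zero.1 h10.symm, zero_pow two_ne_zero] at h8
          have h9 : K (mb r e) ^ 2 = 0 := le_antisymm h8 (sq_nonneg _)
          have h11 := H565.abs_mB r K e
          rw [pow_eq_zero_iff two_ne_zero |>.1 h9, abs_zero] at h11
          rw [abs_eq_zero.1 h11, mul_zero]
      have e1 : Y * Bz Y q n0 r c1 e = K e + H565.mB r K e := by
        unfold Bz Kz
        rw [mul_div_cancel₀ _ hY.ne']
      rw [e1]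
      linear_combination 2 * h5
    have k := hC1 r (c1 * r) (by omega) hA hA4
    have km := k.mir (r := r) fun _ _ => trivial
    rw [Finset.sum_congr rfl fun e _ => hz e, Finset.sum_add_distrib]
    have h5 := k S fun _ _ => trivial
    have h6 := km S fun _ _ => trivial
    have e2 : (1 / ang q) ^ 2 * ang q + (0 : ℝ) ^ 2 * (2 * Real.pi - ang q) = 1 / ang q := by
      field_simp
      ring
    rw [e2] at h5 h6
    have h7 : 2 * C1 ≤ max T1 (max T2 (2 * C1)) := (le_max_right _ _).trans (le_max_right _ _)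
    have e3 : 2 * Real.log r / ang q = 2 * (1 / ang q * Real.log r) := by ring
    rw [e3]
    linarith

end Vale.Agent.P159.T1.S.H407
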