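import Vale.Agent.P159.T1.D.H407.Tilt

/-!
Row S.HARM (P159, stage 2): discrete harmonic functions on the faces of `ℤ²`.

`lp v f = 4 v f - (sum over the four neighbours)` is minus the lattice Laplacian; it is the
divergence combination `dv` of the gradient field `dr v`.

* `max_princ`, `min_princ`, `abs_princ` : maximum principle;
* `exists_harm` : existence of the harmonic function with given values off a finite set;
* `grad_le`, `grad2_le` : gradient bounds;
* `parts_dr` : summation by parts;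
* `caccio` : the Caccioppoli inequality.
-/

namespace Vale.Agent.P159.T1.S

open Vale.Agent.P159.T1.D

/-- minus the lattice Laplacian -/
def lp (v : Z2 → ℝ) (f : Z2) : ℝ :=
  4 * v f - v (f.1 + 1, f.2) - v (f.1 - 1, f.2) - v (f.1, f.2 + 1) - v (f.1, f.2 - 1)

lemma dv_dr (v : Z2 → ℝ) (f : Z2) : dv (dr v) f = lp v f := by
  simp only [dv, dr, lf, rt, lp, Bool.false_eq_true, if_false, if_true, add_sub_cancel_right]
  ring

lemma lp_add (v w : Z2 → ℝ) (f : Z2) : lp (v + w) f = lp v f + lp w f := by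
  simp only [lp, Pi.add_apply]
  ring

lemma lp_sub (v w : Z2 → ℝ) (f : Z2) : lp (v - w) f = lp v f - lp w f := by
  simp only [lp, Pi.sub_apply]
  ring

lemma lp_neg (v : Z2 → ℝ) (f : Z2) : lp (-v) f = -lp v f := by
  simp only [lp, Pi.neg_apply]
  ring

lemma lp_smul (a : ℝ) (v : Z2 → ℝ) (f : Z2) : lp (a • v) f = a * lp v f := by
  simp only [lp, Pi.smul_apply, smul_eq_mul]
  ring

/-- translation -/
lemma lp_shift (v : Z2 → ℝ) (a f : Z2) : lp (fun g => v (g + a)) f = lp v (f + a) := by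
  have e0 : f + a = (f.1 + a.1, f.2 + a.2) := rfl
  have e1 : ((f.1 + 1, f.2) : Z2) + a = (f.1 + a.1 + 1, f.2 + a.2) :=
    Prod.ext (by simp only [Prod.fst_add]; ring) rfl
  have e2 : ((f.1 - 1, f.2) : Z2) + a = (f.1 + a.1 - 1, f.2 + a.2) :=
    Prod.ext (by simp only [Prod.fst_add]; ring) rfl
  have e3 : ((f.1, f.2 + 1) : Z2) + a = (f.1 + a.1, f.2 + a.2 + 1) :=
    Prod.ext rfl (by simp only [Prod.snd_add]; ring)
  have e4 : ((f.1, f.2 - 1) : Z2) + a = (f.1 + a.1, f.2 + a.2 - 1) :=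
    Prod.ext rfl (by simp only [Prod.snd_add]; ring)
  simp only [lp]
  rw [e0, e1, e2, e3, e4]

/-- exchange of the coordinates -/
lemma lp_swap (v : Z2 → ℝ) (f : Z2) : lp (fun g => v (g.2, g.1)) f = lp v (f.2, f.1) := by
  simp only [lp]
  ring

/-- **Maximum principle.** It is enough to have `lp v ≤ 0` where `v` is above the bound. -/
theorem max_princ {R : Finset Z2} {v : Z2 → ℝ} {M : ℝ}
    (h : ∀ f ∈ R, M < v f → lp v f ≤ 0) (hb : ∀ f, f ∉ R → v f ≤ M) (f : Z2) : v f ≤ M := by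
  classical
  by_contra hf
  push Not at hf
  have hfR : f ∈ R := by
    by_contra h1
    exact absurd (hb f h1) (not_le.2 hf)
  obtain ⟨g, hg, hmax⟩ := R.exists_max_image v ⟨f, hfR⟩
  have hM : M < v g := hf.trans_le (hmax f hfR)
  have hall : ∀ k, v k ≤ v g := fun k => by
    by_cases hk : k ∈ R
    · exact hmax k hk
    · exact (hb k hk).trans hM.le
  -- the maximum propagates to the right
  have step : ∀ k, v k = v g → v (k.1 + 1, k.2) = v g := by
    intro k hk
    have hkR : k ∈ R := by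
      by_contra h1
      exact absurd (hb k h1) (not_le.2 (hk ▸ hM))
    have h2 := h k hkR (hk ▸ hM)
    unfold lp at h2
    have h3 := hall (k.1 + 1, k.2)
    have h4 := hall (k.1 - 1, k.2)
    have h5 := hall (k.1, k.2 + 1)
    have h6 := hall (k.1, k.2 - 1)
    linarith
  have line : ∀ n : ℕ, v (g.1 + n, g.2) = v g := by
    intro n
    induction n with
    | zero => simp
    | succ n ih =>
      have := step _ ih
      push_cast
      rw [← add_assoc]
      exact this
  have hinj : Function.Injective fun n : ℕ => ((g.1 + n, g.2) : Z2) := by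
    intro a b hab
    simpa using hab
  have : ∀ n : ℕ, ((g.1 + n, g.2) : Z2) ∈ R := fun n => by
    by_contra h1
    exact absurd (hb _ h1) (not_le.2 ((line n).symm ▸ hM))
  exact Set.infinite_of_injective_forall_mem hinj this R.finite_toSet

theorem min_princ {R : Finset Z2} {v : Z2 → ℝ} {M : ℝ}
    (h : ∀ f ∈ R, v f < M → 0 ≤ lp v f) (hb : ∀ f, f ∉ R → M ≤ v f) (f : Z2) : M ≤ v f := by
  have := max_princ (R := R) (v := -v) (M := -M)
    (fun g hg h1 => by
      rw [lp_neg]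
      have := h g hg (by simp only [Pi.neg_apply] at h1; linarith)
      linarith)
    (fun g hg => by simp only [Pi.neg_apply]; linarith [hb g hg]) f
  simp only [Pi.neg_apply] at this
  linarith

/-- comparison -/
theorem le_princ {R : Finset Z2} {v w : Z2 → ℝ} (h : ∀ f ∈ R, lp v f ≤ lp w f)
    (hb : ∀ f, f ∉ R → v f ≤ w f) (f : Z2) : v f ≤ w f := by
  have := max_princ (R := R) (v := v - w) (M := 0)
    (fun g hg _ => by rw [lp_sub]; linarith [h g hg])
    (fun g hg => by simp only [Pi.sub_apply]; linarith [hb g hg]) f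
  simp only [Pi.sub_apply] at this
  linarith

theorem abs_princ {R : Finset Z2} {v : Z2 → ℝ} {M : ℝ} (h : ∀ f ∈ R, lp v f = 0)
    (hb : ∀ f, f ∉ R → |v f| ≤ M) (f : Z2) : |v f| ≤ M :=
  abs_le.2 ⟨min_princ (fun g hg _ => (h g hg).ge) (fun g hg => (abs_le.1 (hb g hg)).1) f,
    max_princ (fun g hg _ => (h g hg).le) (fun g hg => (abs_le.1 (hb g hg)).2) f⟩

/-- four neighbours -/
def nbr (f g : Z2) : Prop :=
  g = (f.1 + 1, f.2) ∨ g = (f.1 - 1, f.2) ∨ g = (f.1, f.2 + 1) ∨ g = (f.1, f.2 - 1)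

/-- maximum principle with the boundary values only at the neighbours of `R` -/
theorem max_princ_nbr {R : Finset Z2} {v : Z2 → ℝ} {M : ℝ}
    (h : ∀ f ∈ R, M < v f → lp v f ≤ 0) (hb : ∀ f ∈ R, ∀ g, nbr f g → g ∉ R → v g ≤ M)
    {f : Z2} (hf : f ∈ R) : v f ≤ M := by
  classical
  have key := max_princ (R := R) (v := fun g => if g ∈ R then v g else M) (M := M)
    (fun g hg h1 => ?_) (fun g hg => by simp only [hg, if_false]; exact le_rfl) f
  · simpa [hf] using key
  · simp only [hg, if_true] at h1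
    have h2 := h g hg h1
    have h3 : ∀ k, nbr g k → v k ≤ if k ∈ R then v k else M := fun k hk => by
      split_ifs with h4
      · exact le_rfl
      · exact hb g hg k hk h4
    have a1 := h3 (g.1 + 1, g.2) (Or.inl rfl)
    have a2 := h3 (g.1 - 1, g.2) (Or.inr (Or.inl rfl))
    have a3 := h3 (g.1, g.2 + 1) (Or.inr (Or.inr (Or.inl rfl)))
    have a4 := h3 (g.1, g.2 - 1) (Or.inr (Or.inr (Or.inr rfl)))
    unfold lp at h2 ⊢
    simp only [hg, if_true]
    linarith

/-- **Existence of the harmonic function** with values `t` off the finite set `R`. -/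
theorem exists_harm (R : Finset Z2) (t : Z2 → ℝ) :
    ∃ v : Z2 → ℝ, (∀ f, f ∉ R → v f = t f) ∧ ∀ f ∈ R, lp v f = 0 := by
  classical
  let ex : (R → ℝ) →ₗ[ℝ] (Z2 → ℝ) :=
    { toFun := fun x f => if hf : f ∈ R then x ⟨f, hf⟩ else 0
      map_add' := fun x y => by
        funext f
        simp only [Pi.add_apply]
        split_ifs <;> simp
      map_smul' := fun a x => by
        funext f
        simp only [Pi.smul_apply, RingHom.id_apply, smul_eq_mul]
        split_ifs <;> simp }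
  let L : (R → ℝ) →ₗ[ℝ] (R → ℝ) :=
    { toFun := fun x f => lp (ex x) f.1
      map_add' := fun x y => by
        funext f
        rw [map_add, lp_add]
        rfl
      map_smul' := fun a x => by
        funext f
        rw [map_smul, lp_smul]
        rfl }
  have hinj : Function.Injective L := by
    rw [← LinearMap.ker_eq_bot, LinearMap.ker_eq_bot']
    intro x hx
    have h0 : ∀ f ∈ R, lp (ex x) f = 0 := fun f hf => congrFun hx ⟨f, hf⟩
    have hb : ∀ f, f ∉ R → |ex x f| ≤ 0 := fun f hf => by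
      simp [ex, hf]
    funext f
    have h1 := abs_princ h0 hb f.1
    have h2 : ex x f.1 = x f := by simp [ex]
    rw [h2] at h1
    simpa using h1
  obtain ⟨x, hx⟩ := (LinearMap.injective_iff_surjective.1 hinj)
    (fun f => -lp (fun g => if g ∈ R then 0 else t g) f.1)
  refine ⟨ex x + fun g => if g ∈ R then 0 else t g, fun f hf => ?_, fun f hf => ?_⟩
  · simp [ex, hf]
  · rw [lp_add]
    have := congrFun hx ⟨f, hf⟩
    change lp (ex x) f = _ at this
    rw [this]
    ring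

/-! ### gradient bounds -/

/-- the box of radius `m` about `f` -/
def Bx (f : Z2) (m : ℕ) : Set Z2 := {g | |g.1 - f.1| ≤ m ∧ |g.2 - f.2| ≤ m}

lemma mem_Bx {f g : Z2} {m : ℕ} : g ∈ Bx f m ↔ |g.1 - f.1| ≤ m ∧ |g.2 - f.2| ≤ m := Iff.rfl

lemma Bx_mono {f : Z2} {m m' : ℕ} (h : m ≤ m') : Bx f m ⊆ Bx f m' := fun g hg =>
  ⟨hg.1.trans (by exact_mod_cast h), hg.2.trans (by exact_mod_cast h)⟩

lemma Bx_trans {f g k : Z2} {m m' : ℕ} (h : g ∈ Bx f m) (h' : k ∈ Bx g m') :
    k ∈ Bx f (m + m') := by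
  obtain ⟨h1, h2⟩ := h
  obtain ⟨h3, h4⟩ := h'
  rw [abs_le] at h1 h2 h3 h4
  refine ⟨?_, ?_⟩ <;> rw [abs_le] <;> push_cast <;> constructor <;> linarith

/-- **Gradient bound**, horizontal, at the origin, one side. -/
theorem grad_aux {v : Z2 → ℝ} {m : ℕ} (hm : 1 ≤ m) {M : ℝ}
    (hh : ∀ g ∈ Bx (0, 0) m, lp v g = 0) (hM : ∀ g ∈ Bx (0, 0) (m + 1), |v g| ≤ M) :
    v (1, 0) - v (0, 0) ≤ 2 * M / m := by
  classical
  have hm0 : (0 : ℝ) < m := by exact_mod_cast hm
  have hM0 : 0 ≤ M := (abs_nonneg _).trans (hM (0, 0) (by simp [Bx]; omega))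
  -- the antisymmetric function and the barrier
  set a : Z2 → ℝ := fun g => v g - v (1 - g.1, g.2) with ha
  set ψ : Z2 → ℝ := fun g => 2 * M * (2 * ((g.1 : ℝ) - 1 / 2) / m - ((g.1 : ℝ) - 1 / 2) ^ 2 / m ^ 2 +
    (g.2 : ℝ) ^ 2 / m ^ 2 + 1 / (4 * m ^ 2)) with hψ
  set H : Finset Z2 := Finset.Icc (1, -(m : ℤ)) ((m : ℤ), (m : ℤ)) with hH
  have memH : ∀ g : Z2, g ∈ H ↔ (1 ≤ g.1 ∧ g.1 ≤ m) ∧ (-(m : ℤ) ≤ g.2 ∧ g.2 ≤ m) := by
    intro g
    rw [hH, Finset.mem_Icc, Prod.le_def, Prod.le_def]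
    tauto
  have hlpa : ∀ g ∈ H, lp a g = 0 := by
    intro g hg
    rw [memH] at hg
    have h1 := hh g (by rw [mem_Bx, abs_le, abs_le]; simp only [sub_zero]; omega)
    have h2 := hh (1 - g.1, g.2) (by rw [mem_Bx, abs_le, abs_le]; simp only [sub_zero]; omega)
    unfold lp at h1 h2 ⊢
    simp only [ha]
    have e1 : (1 : ℤ) - (g.1 + 1) = 1 - g.1 - 1 := by ring
    have e2 : (1 : ℤ) - (g.1 - 1) = 1 - g.1 + 1 := by ring
    rw [e1, e2]
    simp only at h2
    linarith
  have hlpψ : ∀ g, lp ψ g = 0 := by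
    intro g
    unfold lp
    simp only [hψ]
    push_cast
    field_simp
    ring
  -- boundary values
  have hbd : ∀ g : Z2, (g.1 = m + 1 ∨ g.2 = m + 1 ∨ g.2 = -(m : ℤ) - 1) → 1 ≤ g.1 →
      g.1 ≤ m + 1 → 2 * M ≤ ψ g := by
    intro g hg h1 h2
    have h1' : (1 : ℝ) ≤ g.1 := by exact_mod_cast h1
    have h2' : (g.1 : ℝ) ≤ m + 1 := by exact_mod_cast h2
    simp only [hψ]
    refine le_mul_of_one_le_right (by linarith) ?_
    have e : 2 * ((g.1 : ℝ) - 1 / 2) / m - ((g.1 : ℝ) - 1 / 2) ^ 2 / m ^ 2 +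
        (g.2 : ℝ) ^ 2 / m ^ 2 + 1 / (4 * m ^ 2) =
        (2 * ((g.1 : ℝ) - 1 / 2) * m - ((g.1 : ℝ) - 1 / 2) ^ 2 + (g.2 : ℝ) ^ 2 + 1 / 4) / m ^ 2 := by
      field_simp
    rw [e, le_div_iff₀ (by positivity), one_mul]
    rcases hg with h3 | h3 | h3
    · have h3' : (g.1 : ℝ) = m + 1 := by exact_mod_cast h3
      rw [h3']
      nlinarith [sq_nonneg (g.2 : ℝ)]
    · have h3' : (g.2 : ℝ) = m + 1 := by exact_mod_cast h3
      rw [h3']
      nlinarith
    · have h3' : (g.2 : ℝ) = -m - 1 := by exact_mod_cast h3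
      rw [h3']
      nlinarith
  have hψcol : ∀ y : ℤ, -ψ (1, y) ≤ ψ (0, y) := by
    intro y
    simp only [hψ]
    push_cast
    have h4 : 0 ≤ 2 * M * (2 * ((y : ℝ) ^ 2 / m ^ 2)) := by positivity
    have e : 2 * M * (2 * ((0 : ℝ) - 1 / 2) / m - ((0 : ℝ) - 1 / 2) ^ 2 / m ^ 2 +
        (y : ℝ) ^ 2 / m ^ 2 + 1 / (4 * m ^ 2)) +
        2 * M * (2 * ((1 : ℝ) - 1 / 2) / m - ((1 : ℝ) - 1 / 2) ^ 2 / m ^ 2 +
        (y : ℝ) ^ 2 / m ^ 2 + 1 / (4 * m ^ 2)) = 2 * M * (2 * ((y : ℝ) ^ 2 / m ^ 2)) := by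
      field_simp
      ring
    linarith
  have ha2 : ∀ g ∈ Bx (0, 0) (m + 1), (1 - g.1, g.2) ∈ Bx (0, 0) (m + 1) → a g ≤ 2 * M := by
    intro g h1 h2
    have h3 := abs_le.1 (hM g h1)
    have h4 := abs_le.1 (hM _ h2)
    simp only [ha]
    linarith
  have key := max_princ (R := H) (v := fun g => if g ∈ H then a g - ψ g else 0) (M := 0)
    (fun g hg h1 => ?_) (fun g hg => by simp only [hg, if_false]; exact le_rfl) (1, 0)
  · have h10 : ((1, 0) : Z2) ∈ H := by
      rw [memH]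
      omega
    simp only [h10, if_true] at key
    have e1 : a (1, 0) = v (1, 0) - v (0, 0) := by
      simp only [ha]
      norm_num
    have e2 : ψ (1, 0) = 2 * M / m := by
      simp only [hψ]
      push_cast
      field_simp
      ring
    rw [e1, e2] at key
    linarith
  · simp only [hg, if_true] at h1
    have hg' := (memH g).1 hg
    have h2 : lp (a - ψ) g = 0 := by rw [lp_sub, hlpa g hg, hlpψ g, sub_zero]
    -- a neighbour in the box which is not in `H` has a value `≤ 0` or `≤ - (a - ψ) g`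
    have hn : ∀ k : Z2, nbr g k → a k - ψ k ≤ if k ∈ H then a k - ψ k else 0 := by
      intro k hk
      split_ifs with hkH
      · exact le_rfl
      · rw [memH] at hkH
        by_cases hk1 : k.1 = 0
        · -- left column
          have hgk : g = (1, k.2) := by
            rcases hk with rfl | rfl | rfl | rfl
            · simp only at hk1; omega
            · simp only at hk1 ⊢
              ext
              · simp only; omega
              · rfl
            · simp only at hk1; omega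
            · simp only at hk1; omega
          have e3 : a k = -a g := by
            simp only [ha]
            rw [hgk]
            have e4 : k = (0, k.2) := by ext <;> simp [hk1]
            rw [e4]
            norm_num
          have e4 : k = (0, k.2) := by ext <;> simp [hk1]
          have h5 := hψcol k.2
          rw [← e4, ← hgk] at h5
          rw [e3]
          linarith
        · have h5 : 1 ≤ k.1 ∧ k.1 ≤ m + 1 ∧ (k.1 = m + 1 ∨ k.2 = m + 1 ∨ k.2 = -(m : ℤ) - 1) ∧
              -(m : ℤ) - 1 ≤ k.2 ∧ k.2 ≤ m + 1 := by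
            rcases hk with rfl | rfl | rfl | rfl <;> simp only at * <;> omega
          have h6 := hbd k h5.2.2.1 h5.1 h5.2.1
          have h7 : a k ≤ 2 * M := by
            refine ha2 k ?_ ?_
            · rw [mem_Bx, abs_le, abs_le]
              push_cast
              simp only [sub_zero]
              omega
            · rw [mem_Bx, abs_le, abs_le]
              push_cast
              simp only [sub_zero]
              omega
          linarith
    have a1 := hn (g.1 + 1, g.2) (Or.inl rfl)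
    have a2 := hn (g.1 - 1, g.2) (Or.inr (Or.inl rfl))
    have a3 := hn (g.1, g.2 + 1) (Or.inr (Or.inr (Or.inl rfl)))
    have a4 := hn (g.1, g.2 - 1) (Or.inr (Or.inr (Or.inr rfl)))
    unfold lp at h2 ⊢
    simp only [Pi.sub_apply] at h2
    simp only [hg, if_true]
    linarith

/-- transport of `lp` by an isometry of the lattice (given by a rule for the neighbours) -/
lemma grad_of_map {v : Z2 → ℝ} {m : ℕ} (hm : 1 ≤ m) {M : ℝ} (F : Z2 → Z2) (f : Z2)
    (hF : ∀ n : ℕ, ∀ g ∈ Bx (0, 0) n, F g ∈ Bx f n)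
    (hlp : ∀ g, lp (fun x => v (F x)) g = lp v (F g))
    (hh : ∀ g ∈ Bx f m, lp v g = 0) (hM : ∀ g ∈ Bx f (m + 1), |v g| ≤ M) :
    |v (F (1, 0)) - v (F (0, 0))| ≤ 2 * M / m := by
  refine abs_le.2 ⟨?_, ?_⟩
  · have := grad_aux (v := fun x => -v (F x)) hm (M := M)
      (fun g hg => by
        have h1 : lp (fun x => -v (F x)) g = -lp (fun x => v (F x)) g := lp_neg _ _
        rw [h1, hlp, hh _ (hF m g hg), neg_zero])
      (fun g hg => by rw [abs_neg]; exact hM _ (hF _ g hg))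
    linarith
  · exact grad_aux (v := fun x => v (F x)) hm (M := M)
      (fun g hg => by rw [hlp, hh _ (hF m g hg)]) (fun g hg => hM _ (hF _ g hg))

/-- **Gradient bound.** -/
theorem grad_le {v : Z2 → ℝ} {m : ℕ} (hm : 1 ≤ m) {M : ℝ} {f : Z2}
    (hh : ∀ g ∈ Bx f m, lp v g = 0) (hM : ∀ g ∈ Bx f (m + 1), |v g| ≤ M) {k : Z2}
    (hk : nbr f k) : |v k - v f| ≤ 2 * M / m := by
  rcases hk with rfl | rfl | rfl | rfl
  · have := grad_of_map hm (fun g => (f.1 + g.1, f.2 + g.2)) f (fun n g hg => ?_) (fun g => ?_)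
      hh hM
    · simpa using this
    · rw [mem_Bx] at hg ⊢
      simpa using hg
    · simp only [lp]
      rw [show f.1 + (g.1 + 1) = f.1 + g.1 + 1 by ring, show f.1 + (g.1 - 1) = f.1 + g.1 - 1 by ring,
        show f.2 + (g.2 + 1) = f.2 + g.2 + 1 by ring, show f.2 + (g.2 - 1) = f.2 + g.2 - 1 by ring]
  · have := grad_of_map hm (fun g => (f.1 - g.1, f.2 + g.2)) f (fun n g hg => ?_) (fun g => ?_)
      hh hM
    · simpa using this
    · rw [mem_Bx] at hg ⊢
      simpa using hg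
    · simp only [lp]
      rw [show f.1 - (g.1 + 1) = f.1 - g.1 - 1 by ring, show f.1 - (g.1 - 1) = f.1 - g.1 + 1 by ring,
        show f.2 + (g.2 + 1) = f.2 + g.2 + 1 by ring, show f.2 + (g.2 - 1) = f.2 + g.2 - 1 by ring]
      ring
  · have := grad_of_map hm (fun g => (f.1 + g.2, f.2 + g.1)) f (fun n g hg => ?_) (fun g => ?_)
      hh hM
    · simpa using this
    · rw [mem_Bx] at hg ⊢
      simpa using And.symm hg
    · simp only [lp]
      rw [show f.2 + (g.1 + 1) = f.2 + g.1 + 1 by ring, show f.2 + (g.1 - 1) = f.2 + g.1 - 1 by ring,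
        show f.1 + (g.2 + 1) = f.1 + g.2 + 1 by ring, show f.1 + (g.2 - 1) = f.1 + g.2 - 1 by ring]
      ring
  · have := grad_of_map hm (fun g => (f.1 + g.2, f.2 - g.1)) f (fun n g hg => ?_) (fun g => ?_)
      hh hM
    · simpa using this
    · rw [mem_Bx] at hg ⊢
      simpa using And.symm hg
    · simp only [lp]
      rw [show f.2 - (g.1 + 1) = f.2 - g.1 - 1 by ring, show f.2 - (g.1 - 1) = f.2 - g.1 + 1 by ring,
        show f.1 + (g.2 + 1) = f.1 + g.2 + 1 by ring, show f.1 + (g.2 - 1) = f.1 + g.2 - 1 by ring]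
      ring

lemma nbr_rt_lf (e : Bnd) : nbr (rt e) (lf e) := by
  obtain ⟨⟨x, y⟩, b⟩ := e
  cases b
  · right; right; left
    simp [rt, lf]
  · right; left
    simp [rt, lf]

/-- gradient bound on a bond -/
theorem dr_le {v : Z2 → ℝ} {m : ℕ} (hm : 1 ≤ m) {M : ℝ} {e : Bnd}
    (hh : ∀ g ∈ Bx (rt e) m, lp v g = 0) (hM : ∀ g ∈ Bx (rt e) (m + 1), |v g| ≤ M) :
    |dr v e| ≤ 2 * M / m :=
  grad_le hm hh hM (nbr_rt_lf e)

/-- **Bound of the second differences.** -/
theorem grad2_le {v : Z2 → ℝ} {m : ℕ} (hm : 1 ≤ m) {M : ℝ} {f : Z2}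
    (hh : ∀ g ∈ Bx f (2 * m + 2), lp v g = 0) (hM : ∀ g ∈ Bx f (2 * m + 3), |v g| ≤ M)
    {a k : Z2} (ha : nbr 0 a) (hk : nbr f k) :
    |(v (k + a) - v k) - (v (f + a) - v f)| ≤ 4 * M / m ^ 2 := by
  have hm0 : (0 : ℝ) < m := by exact_mod_cast hm
  have hga : ∀ g : Z2, nbr g (g + a) := by
    intro g
    rcases ha with rfl | rfl | rfl | rfl
    · left; ext <;> simp
    · right; left; ext <;> simp [sub_eq_add_neg]
    · right; right; left; ext <;> simp
    · right; right; right; ext <;> simp [sub_eq_add_neg]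
  have hnb : ∀ g ∈ Bx f (m + 1), |v (g + a) - v g| ≤ 2 * M / m := by
    intro g hg
    refine grad_le hm (fun x hx => hh x ?_) (fun x hx => hM x ?_) (hga g)
    · exact Bx_mono (by omega) (Bx_trans hg hx)
    · exact Bx_mono (by omega) (Bx_trans hg hx)
  have h1 := grad_le (v := fun g => v (g + a) - v g) hm (M := 2 * M / m) (f := f)
    (fun g hg => ?_) hnb hk
  · refine h1.trans (le_of_eq ?_)
    field_simp
    ring
  · have e1 : lp (fun g => v (g + a) - v g) g = lp (fun g => v (g + a)) g - lp v g := lp_sub _ _ _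
    rw [e1, lp_shift, hh g (Bx_mono (by omega) hg), hh (g + a), sub_zero]
    refine Bx_mono (m := m + 1) (by omega) (Bx_trans hg ?_)
    rw [mem_Bx, abs_le, abs_le]
    rcases ha with rfl | rfl | rfl | rfl <;> simp

/-! ### summation by parts and the Caccioppoli inequality -/

lemma filter_lf {S : Finset Bnd} {f : Z2} (h : sides f ⊆ S) :
    S.filter (fun e => lf e = f) = {(f, false), ((f.1 + 1, f.2), true)} := by
  ext ⟨⟨x, y⟩, b⟩
  rw [Finset.mem_filter, Finset.mem_insert, Finset.mem_singleton]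
  constructor
  · rintro ⟨-, h2⟩
    cases b
    · left
      simp only [lf, Bool.false_eq_true, if_false] at h2
      rw [← h2]
    · right
      simp only [lf, if_true] at h2
      rw [← h2]
      simp
  · rintro (h2 | h2)
    · rw [h2]
      exact ⟨h (by simp [sides]), by simp [lf]⟩
    · rw [h2]
      exact ⟨h (by simp [sides]), by simp [lf]⟩

lemma filter_rt {S : Finset Bnd} {f : Z2} (h : sides f ⊆ S) :
    S.filter (fun e => rt e = f) = {((f.1, f.2 + 1), false), (f, true)} := by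
  ext ⟨⟨x, y⟩, b⟩
  rw [Finset.mem_filter, Finset.mem_insert, Finset.mem_singleton]
  constructor
  · rintro ⟨-, h2⟩
    cases b
    · left
      simp only [rt, Bool.false_eq_true, if_false] at h2
      rw [← h2]
      simp
    · right
      simp only [rt, if_true] at h2
      rw [← h2]
  · rintro (h2 | h2)
    · rw [h2]
      exact ⟨h (by simp [sides]), by simp [rt]⟩
    · rw [h2]
      exact ⟨h (by simp [sides]), by simp [rt]⟩

/-- **Summation by parts.** -/
theorem parts_dr {S : Finset Bnd} {F : Finset Z2} {φ : Z2 → ℝ} (B : Bnd → ℝ)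
    (hF : ∀ f, f ∉ F → φ f = 0) (hS : bd F ⊆ S) :
    ∑ e ∈ S, B e * dr φ e = ∑ f ∈ F, φ f * dv B f := by
  classical
  have hS' : ∀ f ∈ F, sides f ⊆ S := fun f hf =>
    (Finset.subset_biUnion_of_mem sides hf).trans hS
  have hφ : ∀ g : Z2, φ g = ∑ f ∈ F, if g = f then φ f else 0 := by
    intro g
    rw [Finset.sum_ite_eq F g]
    split_ifs with h
    · rfl
    · exact hF g h
  have h1 : ∑ e ∈ S, B e * φ (lf e) = ∑ f ∈ F, φ f * (B (f, false) + B ((f.1 + 1, f.2), true)) := by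
    calc ∑ e ∈ S, B e * φ (lf e) = ∑ e ∈ S, ∑ f ∈ F, if lf e = f then B e * φ f else 0 := by
          refine Finset.sum_congr rfl fun e _ => ?_
          rw [hφ (lf e), Finset.mul_sum]
          refine Finset.sum_congr rfl fun f _ => ?_
          split_ifs <;> simp
      _ = ∑ f ∈ F, ∑ e ∈ S, if lf e = f then B e * φ f else 0 := Finset.sum_comm
      _ = _ := by
          refine Finset.sum_congr rfl fun f hf => ?_
          rw [← Finset.sum_filter, filter_lf (hS' f hf), Finset.sum_pair (by simp)]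
          ring
  have h2 : ∑ e ∈ S, B e * φ (rt e) = ∑ f ∈ F, φ f * (B ((f.1, f.2 + 1), false) + B (f, true)) := by
    calc ∑ e ∈ S, B e * φ (rt e) = ∑ e ∈ S, ∑ f ∈ F, if rt e = f then B e * φ f else 0 := by
          refine Finset.sum_congr rfl fun e _ => ?_
          rw [hφ (rt e), Finset.mul_sum]
          refine Finset.sum_congr rfl fun f _ => ?_
          split_ifs <;> simp
      _ = ∑ f ∈ F, ∑ e ∈ S, if rt e = f then B e * φ f else 0 := Finset.sum_comm
      _ = _ := by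
          refine Finset.sum_congr rfl fun f hf => ?_
          rw [← Finset.sum_filter, filter_rt (hS' f hf), Finset.sum_pair (by simp)]
          ring
  have h3 : ∑ e ∈ S, B e * dr φ e = ∑ e ∈ S, B e * φ (lf e) - ∑ e ∈ S, B e * φ (rt e) := by
    rw [← Finset.sum_sub_distrib]
    refine Finset.sum_congr rfl fun e _ => ?_
    simp only [dr]
    ring
  rw [h3, h1, h2, ← Finset.sum_sub_distrib]
  refine Finset.sum_congr rfl fun f _ => ?_
  simp only [dv]
  ring

lemma caccio_pt (x y U T ub : ℝ) :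
    (x ^ 2 + y ^ 2) / 2 * U ^ 2 / 2 - 2 * ((x ^ 2 + y ^ 2) / 2 * T ^ 2) -
        5 * (ub ^ 2 * (x - y) ^ 2) ≤
      (U + T) * ((x ^ 2 + y ^ 2) / 2 * U + ub * (x ^ 2 - y ^ 2)) := by
  have h1 : 0 ≤ ((x - y) / 2) ^ 2 * ((U + T) ^ 2 / 2 + 3 / 2 * T ^ 2) := by positivity
  have h2 : 0 ≤ ((x + y) / 2 * (U + T) + 2 * (ub * (x - y))) ^ 2 / 2 := by positivity
  have h3 : 0 ≤ 3 / 2 * ((x + y) / 2 * T) ^ 2 + 3 * (ub * (x - y)) ^ 2 := by positivity
  nlinarith [h1, h2, h3]

/-- **The Caccioppoli inequality**: `w` is harmonic, or equal to `t`, wherever the cut-off `χ` is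
not zero. -/
theorem caccio {S : Finset Bnd} {F : Finset Z2} {w t χ : Z2 → ℝ}
    (hF : ∀ f, f ∉ F → χ f = 0) (hS : bd F ⊆ S) (h : ∀ f ∈ F, χ f = 0 ∨ w f = t f ∨ lp w f = 0) :
    ∑ e ∈ S, ((χ (lf e)) ^ 2 + (χ (rt e)) ^ 2) / 2 * dr (w - t) e ^ 2 ≤
      4 * ∑ e ∈ S, ((χ (lf e)) ^ 2 + (χ (rt e)) ^ 2) / 2 * dr t e ^ 2 +
        10 * ∑ e ∈ S, (((w - t) (lf e) + (w - t) (rt e)) / 2) ^ 2 * dr χ e ^ 2 := by
  have h0 := parts_dr (S := S) (F := F) (φ := fun f => χ f ^ 2 * (w - t) f) (dr w)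
    (fun f hf => by simp [hF f hf]) hS
  have h1 : ∑ f ∈ F, (χ f ^ 2 * (w - t) f) * dv (dr w) f = 0 := by
    refine Finset.sum_eq_zero fun f hf => ?_
    rw [dv_dr]
    rcases h f hf with h2 | h2 | h2
    · simp [h2]
    · simp [h2]
    · simp [h2]
  rw [h1] at h0
  have h2 : ∑ e ∈ S, (((χ (lf e)) ^ 2 + (χ (rt e)) ^ 2) / 2 * dr (w - t) e ^ 2 / 2 -
      2 * (((χ (lf e)) ^ 2 + (χ (rt e)) ^ 2) / 2 * dr t e ^ 2) -
      5 * ((((w - t) (lf e) + (w - t) (rt e)) / 2) ^ 2 * dr χ e ^ 2)) ≤ 0 := by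
    rw [← h0]
    refine Finset.sum_le_sum fun e _ => ?_
    have h3 := caccio_pt (χ (lf e)) (χ (rt e)) (dr (w - t) e) (dr t e)
      (((w - t) (lf e) + (w - t) (rt e)) / 2)
    refine h3.trans (le_of_eq ?_)
    simp only [dr, Pi.sub_apply]
    ring
  rw [Finset.sum_sub_distrib, Finset.sum_sub_distrib, ← Finset.mul_sum, ← Finset.mul_sum,
    ← Finset.sum_div] at h2
  linarith

/-- interior form: `w` is harmonic where the cut-off is not zero -/
theorem caccio_int {S : Finset Bnd} {F : Finset Z2} {w χ : Z2 → ℝ}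
    (hF : ∀ f, f ∉ F → χ f = 0) (hS : bd F ⊆ S) (h : ∀ f ∈ F, χ f = 0 ∨ lp w f = 0) :
    ∑ e ∈ S, ((χ (lf e)) ^ 2 + (χ (rt e)) ^ 2) / 2 * dr w e ^ 2 ≤
      10 * ∑ e ∈ S, ((w (lf e) + w (rt e)) / 2) ^ 2 * dr χ e ^ 2 := by
  have h1 := caccio (S := S) (F := F) (w := w) (t := 0) (χ := χ) hF hS
    (fun f hf => (h f hf).imp id Or.inr)
  have h2 : ∀ e : Bnd, dr (0 : Z2 → ℝ) e = 0 := fun e => by simp [dr]
  simpa [h2] using h1

end Vale.Agent.P159.T1.S
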