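import Vale.Agent.P159.T1.D.H469.Cov
import Vale.Agent.P159.T1.D.H130.UFin
import Vale.Agent.P159.T1.S.H226.Flux

/-!
Row S.KEY of plan 118 (P159), algebraic part: the coarse condition of the exploration with the last
line kept, for every cluster `N`, from the upper bound `StmtU` (uniform in the domain, the sector
and the field) and from `exp (Var / 2) ≤ E exp`. All quantities which depend on the flux into `N`
cancel.
-/

open Filter Topology

namespace Vale.Agent.P159.T1.S.H407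

open Vale.Agent.P159 Vale.Agent.P159.T1 Vale.Agent.P159.T1.D Vale.Agent.P159.T1.S.H226

/-- outer value at the face `f` seen from the bond `e`: `k` on `N` and on the upper part of the
outer face, `0` on the lower part -/
def vl (N : Finset Z2) (k : ℤ) (e : Bnd) (f : Z2) : ℤ := if f ∈ N ∨ 0 ≤ e.1.2 then k else 0

/-- the sector of `U \ N` with outer values `k` on `N` and on the upper part -/
def secN (U N : Finset Z2) (k : ℤ) (e : Bnd) : ℤ :=
  (if lf e ∈ U \ N then 0 else vl N k e (lf e)) - (if rt e ∈ U \ N then 0 else vl N k e (rt e))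

/-- heights `k` on `N` and on the upper part, `0` on the lower part, charges `ρ` -/
noncomputable def Zn (b : ℝ) (U N : Finset Z2) (k : ℤ) (ρ : Z2 → ℝ) : ℝ :=
  ∑' h : Ht (U \ N), wt b (U \ N) (secN U N k) h.1 * Real.exp (ch (U \ N) ρ h.1)

lemma secN_eq {U N : Finset Z2} (hN : N ⊆ U) (e : Bnd) :
    (secN U N 1 e : ℝ) = jmp (U \ N) (fun _ => 1) e -
      (if e.1.2 < 0 then jmp (U \ N) (out U) e else 0) := by
  have key : ∀ f, f ∉ U \ N → ((if f ∈ N ∨ 0 ≤ e.1.2 then (1 : ℤ) else 0 : ℤ) : ℝ) =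
      1 - (if e.1.2 < 0 then out U f else 0) := by
    intro f hf
    by_cases h : e.1.2 < 0
    · rw [if_pos h]
      unfold out
      by_cases hU : f ∈ U
      · have hfN : f ∈ N := by
          by_contra h'
          exact hf (Finset.mem_sdiff.2 ⟨hU, h'⟩)
        rw [if_pos hU, if_pos (Or.inl hfN)]
        norm_num
      · have hfN : f ∉ N := fun h' => hU (hN h')
        rw [if_neg hU, if_neg]
        · norm_num
        · rintro (h' | h')
          · exact hfN h'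
          · omega
    · rw [if_neg h, if_pos (Or.inr (by omega))]
      norm_num
  unfold secN jmp vl
  push_cast
  by_cases h1 : lf e ∈ U \ N
  · by_cases h2 : rt e ∈ U \ N
    · simp only [h1, h2, if_true]
      simp
    · have := key _ h2
      push_cast at this
      simp only [h1, h2, if_true, if_false]
      rw [this]
      by_cases h : e.1.2 < 0
      · simp only [h, if_true]; ring
      · simp only [h, if_false]; ring
  · have a1 := key _ h1
    push_cast at a1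
    by_cases h2 : rt e ∈ U \ N
    · simp only [h1, h2, if_true, if_false]
      rw [a1]
      by_cases h : e.1.2 < 0
      · simp only [h, if_true]; ring
      · simp only [h, if_false]
    · have a2 := key _ h2
      push_cast at a2
      simp only [h1, h2, if_false]
      rw [a1, a2]
      by_cases h : e.1.2 < 0
      · simp only [h, if_true]; ring
      · simp only [h, if_false]; ring

/-- the flux of `B` into `N` and the upper part -/
theorem sum_secN {U N : Finset Z2} (hN : N ⊆ U) (B : Bnd → ℝ) :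
    ∑ e ∈ bd (U \ N), B e * (secN U N 1 e : ℝ) =
      -∑ f ∈ U \ N, D.dv B f - Flow (U \ N) U B := by
  have h1 := by_parts (U \ N) B fun _ => 1
  have h2 : ∑ e ∈ bd (U \ N), B e * dr (fun _ => (1 : ℝ)) e = 0 :=
    Finset.sum_eq_zero fun e _ => by unfold dr; ring
  rw [h2] at h1
  have h3 : ∑ e ∈ bd (U \ N), B e * (secN U N 1 e : ℝ) =
      ∑ e ∈ bd (U \ N), B e * jmp (U \ N) (fun _ => 1) e - Flow (U \ N) U B := by
    unfold H226.Flow
    rw [Finset.sum_filter, ← Finset.sum_sub_distrib]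
    refine Finset.sum_congr rfl fun e _ => ?_
    rw [secN_eq hN]
    split_ifs <;> ring
  rw [h3]
  have h4 : ∑ f ∈ U \ N, D.dv B f * (1 : ℝ) = ∑ f ∈ U \ N, D.dv B f :=
    Finset.sum_congr rfl fun f _ => mul_one _
  rw [h4] at h1
  linarith

/-- the charges and the field in the sector of `N` -/
theorem Zn_eq {U N : Finset Z2} (hN : N ⊆ U) {B : Bnd → ℝ} {ρ : Z2 → ℝ}
    (hd : IsDiv (U \ N) B ρ) (b : ℝ) :
    Zn b U N 1 ρ = Real.exp (∑ f ∈ U \ N, ρ f + Flow (U \ N) U B) *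
      ZB b (U \ N) (secN U N 1) B := by
  rw [H469.ZB_eq hd, ← mul_assoc, ← Real.exp_add, sum_secN hN]
  have h1 : ∑ f ∈ U \ N, D.dv B f = ∑ f ∈ U \ N, ρ f :=
    Finset.sum_congr rfl fun f hf => D.isDiv_iff.1 hd f hf
  rw [h1]
  have h2 : ∑ f ∈ U \ N, ρ f + Flow (U \ N) U B +
      (-∑ f ∈ U \ N, ρ f - Flow (U \ N) U B) = 0 := by ring
  rw [h2, Real.exp_zero, one_mul]
  rfl

/-- **the cancellation.** `B₀` carries the charges `ρ₁`, `Bz` the layer charges; `Bz` does not see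
the sector of `N`. -/
theorem flow_key {U N : Finset Z2} (hN : N ⊆ U) {B0 Bz : Bnd → ℝ} {ρ ρ1 : Z2 → ℝ}
    (h0 : IsDiv (U \ N) B0 ρ1) (hz : IsDiv (U \ N) (fun e => B0 e + Bz e) ρ)
    (hs : ∀ e ∈ bd (U \ N), secN U N 1 e ≠ 0 → Bz e = 0) :
    ∑ f ∈ U \ N, ρ f + Flow (U \ N) U (fun e => B0 e + Bz e) =
      ∑ f ∈ U \ N, ρ1 f + Flow (U \ N) U B0 := by
  have a1 := sum_secN hN (fun e => B0 e + Bz e)
  have a2 := sum_secN hN B0
  have h1 : ∑ f ∈ U \ N, D.dv (fun e => B0 e + Bz e) f = ∑ f ∈ U \ N, ρ f :=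
    Finset.sum_congr rfl fun f hf => D.isDiv_iff.1 hz f hf
  have h2 : ∑ f ∈ U \ N, D.dv B0 f = ∑ f ∈ U \ N, ρ1 f :=
    Finset.sum_congr rfl fun f hf => D.isDiv_iff.1 h0 f hf
  rw [h1] at a1
  rw [h2] at a2
  have h3 : ∑ e ∈ bd (U \ N), (B0 e + Bz e) * (secN U N 1 e : ℝ) =
      ∑ e ∈ bd (U \ N), B0 e * (secN U N 1 e : ℝ) := by
    refine Finset.sum_congr rfl fun e he => ?_
    by_cases h : secN U N 1 e = 0
    · rw [h]
      simp
    · rw [hs e he h, add_zero]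
  linarith

/-- **S.KEY, abstract form.** For the constants of `StmtU` at `(b, ε)`, every `N`, every domain
`R₁ ⊆ U \ N` for the lower bound. -/
theorem key_abs {b K C η : ℝ} {l : ℕ} (hb : 0 < b)
    (hU : ∀ (U : Finset Z2) (S : Finset Bnd) (m : Bnd → ℤ) (B : Bnd → ℝ),
      (∀ e, e ∉ S → B e = 0) → (∀ e, |B e| ≤ η) →
      ZB b U m B ≤ Real.exp (K / 2 * ∑ e ∈ S, B e ^ 2 + C * osc l S B) * Z b U)
    {U N R1 : Finset Z2} (hN : N ⊆ U) (hR1 : R1 ⊆ U \ N) {S : Finset Bnd}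
    {B0 Bz : Bnd → ℝ} {ρ ρ1 : Z2 → ℝ}
    (h0 : IsDiv (U \ N) B0 ρ1) (hz : IsDiv (U \ N) (fun e => B0 e + Bz e) ρ)
    (hs : ∀ e ∈ bd (U \ N), secN U N 1 e ≠ 0 → Bz e = 0)
    (hS : ∀ e, e ∉ S → B0 e + Bz e = 0) (hη : ∀ e, |B0 e + Bz e| ≤ η)
    (hρN : ∀ f ∈ N, ρ1 f = 0) :
    Zn b U N 1 ρ * Z b R1 ≤
      Real.exp (K / 2 * ∑ e ∈ S, (B0 e + Bz e) ^ 2 + C * osc l S (fun e => B0 e + Bz e) +
        Flow (U \ N) U B0 - Vr b R1 B0 / 2) *
      (Real.exp (∑ f ∈ U, ρ1 f) * Zρ b R1 ρ1) * Z b (U \ N) := by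
  have h1 := hU (U \ N) S (secN U N 1) (fun e => B0 e + Bz e) hS hη
  have h2 : Real.exp (Vr b R1 B0 / 2) * Z b R1 ≤ Zρ b R1 ρ1 := by
    have h3 : IsDiv R1 B0 ρ1 := fun f hf => h0 f (hR1 hf)
    have h4 := H910.exp_Vr_le_div hb.le h3
    rwa [le_div_iff₀ (H910.Z_pos hb.le R1)] at h4
  have h3 : ∑ f ∈ U, ρ1 f = ∑ f ∈ U \ N, ρ1 f := by
    rw [← Finset.sum_sdiff hN, Finset.sum_eq_zero (s := N) hρN, add_zero]
  rw [Zn_eq hN hz, flow_key hN h0 hz hs, h3]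
  have hZ1 := (H910.Z_pos hb.le R1).le
  have hZR := (H910.Z_pos hb.le (U \ N)).le
  set X : ℝ := K / 2 * ∑ e ∈ S, (B0 e + Bz e) ^ 2 + C * osc l S (fun e => B0 e + Bz e) with hX
  calc Real.exp (∑ f ∈ U \ N, ρ1 f + Flow (U \ N) U B0) *
        ZB b (U \ N) (secN U N 1) (fun e => B0 e + Bz e) * Z b R1
      ≤ Real.exp (∑ f ∈ U \ N, ρ1 f + Flow (U \ N) U B0) *
        (Real.exp X * Z b (U \ N)) * Z b R1 := by
        refine mul_le_mul_of_nonneg_right ?_ hZ1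
        exact mul_le_mul_of_nonneg_left h1 (Real.exp_pos _).le
    _ = Real.exp (X + Flow (U \ N) U B0 - Vr b R1 B0 / 2) * Real.exp (∑ f ∈ U \ N, ρ1 f) *
        (Real.exp (Vr b R1 B0 / 2) * Z b R1) * Z b (U \ N) := by
        have e1 : Real.exp (∑ f ∈ U \ N, ρ1 f + Flow (U \ N) U B0) * Real.exp X =
            Real.exp (X + Flow (U \ N) U B0 - Vr b R1 B0 / 2) * Real.exp (∑ f ∈ U \ N, ρ1 f) *
              Real.exp (Vr b R1 B0 / 2) := by
          rw [← Real.exp_add, ← Real.exp_add, ← Real.exp_add]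
          congr 1
          ring
        calc _ = (Real.exp (∑ f ∈ U \ N, ρ1 f + Flow (U \ N) U B0) * Real.exp X) *
              Z b (U \ N) * Z b R1 := by ring
          _ = _ := by rw [e1]; ring
    _ ≤ Real.exp (X + Flow (U \ N) U B0 - Vr b R1 B0 / 2) * Real.exp (∑ f ∈ U \ N, ρ1 f) *
        Zρ b R1 ρ1 * Z b (U \ N) := by
        refine mul_le_mul_of_nonneg_right ?_ hZR
        exact mul_le_mul_of_nonneg_left h2 (by positivity)
    _ = _ := by ring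

/-- S.KEY with the flux inequality inserted: all dependence on the flux is gone. -/
theorem key_abs' {b K C η : ℝ} {l : ℕ} (hb : 0 < b)
    (hU : ∀ (U : Finset Z2) (S : Finset Bnd) (m : Bnd → ℤ) (B : Bnd → ℝ),
      (∀ e, e ∉ S → B e = 0) → (∀ e, |B e| ≤ η) →
      ZB b U m B ≤ Real.exp (K / 2 * ∑ e ∈ S, B e ^ 2 + C * osc l S B) * Z b U)
    {U N R1 : Finset Z2} (hN : N ⊆ U) (hR1 : R1 ⊆ U \ N) {S : Finset Bnd}
    {B0 Bz : Bnd → ℝ} {ρ ρ1 : Z2 → ℝ}
    (h0 : IsDiv (U \ N) B0 ρ1) (hz : IsDiv (U \ N) (fun e => B0 e + Bz e) ρ)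
    (hs : ∀ e ∈ bd (U \ N), secN U N 1 e ≠ 0 → Bz e = 0)
    (hS : ∀ e, e ∉ S → B0 e + Bz e = 0) (hη : ∀ e, |B0 e + Bz e| ≤ η)
    (hρN : ∀ f ∈ N, ρ1 f = 0) {Y F1 V1 O1 D1 : ℝ}
    (hF : Flow (U \ N) U B0 + Y * ∑ e ∈ S, B0 e * Bz e ≤ F1)
    (hV : Y * ∑ e ∈ S, B0 e ^ 2 ≤ Vr b R1 B0 + V1)
    (hO : C * osc l S (fun e => B0 e + Bz e) ≤ O1)
    (hE : (K - Y) / 2 * ∑ e ∈ S, (B0 e + Bz e) ^ 2 ≤ D1) :
    Zn b U N 1 ρ * Z b R1 ≤
      Real.exp (Y / 2 * ∑ e ∈ S, Bz e ^ 2 + F1 + V1 / 2 + O1 + D1) *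
      (Real.exp (∑ f ∈ U, ρ1 f) * Zρ b R1 ρ1) * Z b (U \ N) := by
  refine (key_abs hb hU hN hR1 h0 hz hs hS hη hρN).trans ?_
  refine mul_le_mul_of_nonneg_right ?_ (H910.Z_pos hb.le _).le
  refine mul_le_mul_of_nonneg_right ?_
    (mul_nonneg (Real.exp_pos _).le (H910.Zρ_pos hb.le _ _).le)
  refine Real.exp_le_exp.2 ?_
  have e1 : ∑ e ∈ S, (B0 e + Bz e) ^ 2 = ∑ e ∈ S, B0 e ^ 2 + 2 * ∑ e ∈ S, B0 e * Bz e +
      ∑ e ∈ S, Bz e ^ 2 := by
    rw [Finset.mul_sum, ← Finset.sum_add_distrib, ← Finset.sum_add_distrib]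
    exact Finset.sum_congr rfl fun e _ => by ring
  have e2 : K / 2 * ∑ e ∈ S, (B0 e + Bz e) ^ 2 = (K - Y) / 2 * ∑ e ∈ S, (B0 e + Bz e) ^ 2 +
      Y / 2 * (∑ e ∈ S, B0 e ^ 2 + 2 * ∑ e ∈ S, B0 e * Bz e + ∑ e ∈ S, Bz e ^ 2) := by
    rw [← e1]
    ring
  rw [e2]
  linarith

end Vale.Agent.P159.T1.S.H407
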